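import Vale.Agent.EGH.Final

open MvPolynomial

namespace Vale.Agent.Results.P200.EGH

theorem result {K : Type*} [Field K] {n c : ℕ} (hcn : c ≤ n) (a : Fin c → ℕ)
    (ha : ∀ i, 2 ≤ a i) (hmono : Monotone a)
    (f : Fin c → MvPolynomial (Fin n) K) (hf : ∀ i, (f i).IsHomogeneous (a i))
    (hreg : ∀ (i : Fin c) (g : MvPolynomial (Fin n) K),
      f i * g ∈ Ideal.span (f '' {j | j < i}) → g ∈ Ideal.span (f '' {j | j < i}))
    (I : Ideal (MvPolynomial (Fin n) K))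
    (_hI : ∀ g ∈ I, ∀ d : ℕ, homogeneousComponent d g ∈ I) (hfI : ∀ i, f i ∈ I) :
    ∃ (s : Set (Fin n →₀ ℕ)) (J : Ideal (MvPolynomial (Fin n) K)),
      J = Ideal.span ((fun α => monomial α (1 : K)) '' s) ∧
      (∀ i : Fin c, X (Fin.castLE hcn i) ^ a i ∈ J) ∧
      ∀ d : ℕ,
        Module.finrank K ↥(Submodule.restrictScalars K J ⊓ homogeneousSubmodule (Fin n) K d) =
        Module.finrank K ↥(Submodule.restrictScalars K I ⊓ homogeneousSubmodule (Fin n) K d) := by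
  obtain ⟨m, rfl⟩ := Nat.exists_eq_add_of_le hcn
  obtain ⟨s, hs1, hs2⟩ := Vale.Agent.EGH.egh_add f a (fun i => by have := ha i; omega) hmono hf
    hreg I hfI
  refine ⟨s, _, rfl, fun i => Ideal.subset_span ⟨_, hs1 i, ?_⟩, hs2⟩
  rw [X_pow_eq_monomial]
  rfl

end Vale.Agent.Results.P200.EGH
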