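import Vale.Agent.EGH.LexPP

open MvPolynomial

namespace Vale.Agent.Results.P200.EGHLex

theorem result {K : Type*} [Field K] {n c : ℕ} (hcn : c ≤ n) (a : Fin c → ℕ)
    (ha : ∀ i, 2 ≤ a i) (hmono : Monotone a)
    (f : Fin c → MvPolynomial (Fin n) K) (hf : ∀ i, (f i).IsHomogeneous (a i))
    (hreg : ∀ (i : Fin c) (g : MvPolynomial (Fin n) K),
      f i * g ∈ Ideal.span (f '' {j | j < i}) → g ∈ Ideal.span (f '' {j | j < i}))
    (I : Ideal (MvPolynomial (Fin n) K))
    (_hI : ∀ g ∈ I, ∀ d : ℕ, homogeneousComponent d g ∈ I) (hfI : ∀ i, f i ∈ I)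
    (P : Ideal (MvPolynomial (Fin n) K))
    (hP : P = Ideal.span (Set.range fun i => X (Fin.castLE hcn i) ^ a i))
    (q : ℕ → ℕ)
    (hq : ∀ d, q d =
      Module.finrank K ↥(Submodule.restrictScalars K I ⊓ homogeneousSubmodule (Fin n) K d) -
        Module.finrank K ↥(Submodule.restrictScalars K P ⊓ homogeneousSubmodule (Fin n) K d))
    (J : ℕ → Submodule K (MvPolynomial (Fin n) K))
    (hJ : ∀ d, J d = (Submodule.restrictScalars K P ⊓ homogeneousSubmodule (Fin n) K d) ⊔
      Submodule.span K ((fun α => monomial α (1 : K)) ''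
        {α | α.degree = d ∧ monomial α (1 : K) ∉ P ∧
          {β : Fin n →₀ ℕ | β.degree = d ∧ monomial β (1 : K) ∉ P ∧ toLex α < toLex β}.ncard <
            q d})) :
    (∃ L : Ideal (MvPolynomial (Fin n) K), Submodule.restrictScalars K L = ⨆ d, J d) ∧
      ∀ d, Module.finrank K (J d) =
        Module.finrank K ↥(Submodule.restrictScalars K I ⊓ homogeneousSubmodule (Fin n) K d) := by
  obtain ⟨m, rfl⟩ := Nat.exists_eq_add_of_le hcn
  obtain ⟨s, hs1, hs2⟩ := Vale.Agent.EGH.egh_add f a (fun i => by have := ha i; omega) hmono hf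
    hreg I hfI
  exact Vale.Agent.EGH.lex_plus_powers hcn a hmono I s hs1 hs2 P hP q hq J hJ

end Vale.Agent.Results.P200.EGHLex
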