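import Vale.Agent.P200.Quad

open MvPolynomial

namespace Vale.Agent.Results.P200.EGHQuadrics

theorem result {K : Type*} [Field K] {n c : ℕ} (hcn : c ≤ n)
    (f : Fin c → MvPolynomial (Fin n) K) (hf : ∀ i, (f i).IsHomogeneous 2)
    (hreg : ∀ (i : Fin c) (g : MvPolynomial (Fin n) K),
      f i * g ∈ Ideal.span (f '' {j | j < i}) → g ∈ Ideal.span (f '' {j | j < i}))
    (I : Ideal (MvPolynomial (Fin n) K))
    (_hI : ∀ g ∈ I, ∀ d : ℕ, homogeneousComponent d g ∈ I) (hfI : ∀ i, f i ∈ I) :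
    ∃ (s : Set (Fin n →₀ ℕ)) (J : Ideal (MvPolynomial (Fin n) K)),
      J = Ideal.span ((fun α => monomial α (1 : K)) '' s) ∧
      (∀ i : Fin c, X (Fin.castLE hcn i) ^ 2 ∈ J) ∧
      ∀ d : ℕ,
        Module.finrank K ↥(Submodule.restrictScalars K J ⊓ homogeneousSubmodule (Fin n) K d) =
        Module.finrank K ↥(Submodule.restrictScalars K I ⊓ homogeneousSubmodule (Fin n) K d) := by
  obtain ⟨m, rfl⟩ := Nat.exists_eq_add_of_le hcn
  obtain ⟨s, hs1, hs2⟩ := Vale.Agent.P200.egh_quadrics_add f hf hreg I hfI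
  refine ⟨s, _, rfl, fun i => Ideal.subset_span ⟨_, hs1 i, ?_⟩, hs2⟩
  rw [X_pow_eq_monomial]
  rfl

end Vale.Agent.Results.P200.EGHQuadrics
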